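import Vale.Agent.P076.R2.H64.Defs

/-!
# P076 : Kato smoothing for frequency shells (row K)
-/

open MeasureTheory Complex FourierTransform Filter Topology Set
open scoped ENNReal NNReal

namespace Vale.Agent.P076.R2.H657

open Vale.Agent.P076 Vale.Agent.P076.H791 Vale.Agent.P076.R2.H831 Vale.Agent.P076.R2.H64

variable {n : ℕ}

lemma planch {h : ℝ → ℂ} (h1 : Integrable h) (h2 : MemLp h 2) :
    ∫⁻ s : ℝ, ‖𝓕 h s‖ₑ ^ 2 = ∫⁻ τ, ‖h τ‖ₑ ^ 2 := by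
  have e1 : eLpNorm (𝓕 h : ℝ → ℂ) 2 volume = eLpNorm h 2 volume := by
    rw [← eLpNorm_congr_ae (fourier_L2_ae_eq h1 h2), ← Lp.enorm_def]
    have h0 : ‖(𝓕 (h2.toLp h) : Lp ℂ 2 (volume : Measure ℝ))‖ = ‖h2.toLp h‖ :=
      (Lp.fourierTransformₗᵢ ℝ ℂ).norm_map _
    rw [← ofReal_norm, h0, ofReal_norm, Lp.enorm_def, eLpNorm_congr_ae h2.coeFn_toLp]
  have key : ∀ f : ℝ → ℂ, eLpNorm f 2 volume ^ 2 = ∫⁻ x, ‖f x‖ₑ ^ 2 := by
    intro f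
    rw [eLpNorm_eq_lintegral_rpow_enorm_toReal (by norm_num) (by norm_num)]
    simp only [ENNReal.toReal_ofNat, ENNReal.rpow_ofNat, one_div]
    rw [← ENNReal.rpow_natCast, ← ENNReal.rpow_mul]
    norm_num
  rw [← key, ← key, e1]

/-- the radial profile, on the line -/
noncomputable def pr (G : E n → ℂ) (x : E n) (ρ : ℝ) : ℂ := ext ρ (fun ω => G (ρ • ω.1)) x

lemma measurable_pr {G : E n → ℂ} (hG : Measurable G) (x : E n) : Measurable (pr G x) := by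
  have c1 : Continuous fun q : ℝ × Sp n => os q.1 x q.2 := by
    unfold os
    fun_prop
  have c2 : Continuous fun q : ℝ × Sp n => (q.1 • q.2.1 : E n) := by
    fun_prop
  have m1 : Measurable fun q : ℝ × Sp n => os q.1 x q.2 * G (q.1 • q.2.1) :=
    c1.measurable.mul (hG.comp c2.measurable)
  exact m1.stronglyMeasurable.integral_prod_right.measurable

lemma pr_zero {R : ℝ} {G : E n → ℂ} (hG : ∀ η, G η ≠ 0 → R ≤ ‖η‖ ∧ ‖η‖ ≤ 2 * R) (x : E n) {ρ : ℝ}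
    (h0 : 0 < ρ) (h : ¬ (R ≤ ρ ∧ ρ ≤ 2 * R)) : pr G x ρ = 0 := by
  have e1 : ∀ ω : Sp n, G (ρ • ω.1) = 0 := by
    intro ω
    by_contra hne
    have h1 := hG _ hne
    have e2 : ‖(ρ • ω.1 : E n)‖ = ρ := by
      rw [norm_smul, Real.norm_eq_abs, abs_of_pos h0]
      simp
    rw [e2] at h1
    exact h h1
  unfold pr H831.ext
  simp [e1]

/-- the radial frequency function -/
noncomputable def hf (G : E n → ℂ) (x : E n) : ℝ → ℂ :=
  (Ioi (0 : ℝ)).indicator fun τ => (√τ ^ (n - 1) / (2 * √τ)) • pr G x √τ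

lemma measurable_hf {G : E n → ℂ} (hG : Measurable G) (x : E n) : Measurable (hf G x) := by
  unfold hf
  refine Measurable.indicator ?_ measurableSet_Ioi
  have h1 : Measurable fun τ : ℝ => pr G x √τ := (measurable_pr hG x).comp (by fun_prop)
  exact (by fun_prop : Measurable fun τ : ℝ => √τ ^ (n - 1) / (2 * √τ)).smul h1

lemma image_sq : (fun ρ : ℝ => ρ ^ 2) '' Ioi 0 = Ioi 0 := by
  ext τ
  simp only [mem_image, mem_Ioi]
  constructor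
  · rintro ⟨ρ, hρ, rfl⟩
    positivity
  · intro hτ
    exact ⟨√τ, Real.sqrt_pos.2 hτ, Real.sq_sqrt hτ.le⟩

lemma inj_sq : InjOn (fun ρ : ℝ => ρ ^ 2) (Ioi 0) := by
  intro a ha b hb h
  simp only [mem_Ioi] at ha hb
  exact (pow_left_inj₀ ha.le hb.le (by norm_num)).1 h

lemma evo_nu (hn : 1 ≤ n) {G : E n → ℂ} (hG : Integrable G) (x : E n) (s : ℝ) :
    evo G x s 0 = ∫ ρ, cexp (((-(2 * Real.pi * (s * ρ.1 ^ 2)) : ℝ) : ℂ) * I) *
      pro G x ρ ∂nu n := by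
  rw [evo_eq, int_polar hn (integrable_ph_mul hG x s le_rfl)]
  refine integral_congr_ae (Eventually.of_forall fun ρ => ?_)
  have hρ : 0 < ρ.1 := ρ.2
  have e1 : ∀ ω : Sp n, ph x s 0 (ρ.1 • ω.1) * G (ρ.1 • ω.1)
      = cexp (((-(2 * Real.pi * (s * ρ.1 ^ 2)) : ℝ) : ℂ) * I) *
        (os ρ.1 x ω * G (ρ.1 • ω.1)) := by
    intro ω
    have hω : ‖(ω : E n)‖ = 1 := by simp
    rw [← mul_assoc, os, ← Complex.exp_add, ph, norm_smul, hω, mul_one, Real.norm_eq_abs, sq_abs,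
      inner_smul_right]
    congr 2
    push_cast
    ring
  simp only
  simp_rw [e1]
  rw [integral_const_mul]
  rfl

lemma evo_line (hn : 1 ≤ n) {G : E n → ℂ} (hG : Integrable G) (x : E n) (s : ℝ) :
    evo G x s 0 = ∫ ρ in Ioi (0 : ℝ), (ρ ^ (n - 1)) •
      (cexp (((-(2 * Real.pi * (s * ρ ^ 2)) : ℝ) : ℂ) * I) * pr G x ρ) := by
  rw [evo_nu hn hG]
  have h1 : Measurable fun r : Ioi (0 : ℝ) => ENNReal.ofReal (r.1 ^ (n - 1)) := by fun_prop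
  have h2 := integral_withDensity_eq_integral_toReal_smul
    (μ := (Measure.comap Subtype.val (volume : Measure ℝ) : Measure (Ioi (0 : ℝ)))) h1
    (Eventually.of_forall fun _ => ENNReal.ofReal_lt_top)
    (fun ρ : Ioi (0 : ℝ) => cexp (((-(2 * Real.pi * (s * ρ.1 ^ 2)) : ℝ) : ℂ) * I) * pro G x ρ)
  have h3 : ∫ ρ, cexp (((-(2 * Real.pi * (s * ρ.1 ^ 2)) : ℝ) : ℂ) * I) * pro G x ρ ∂nu n =
      ∫ ρ : Ioi (0 : ℝ), cexp (((-(2 * Real.pi * (s * ρ.1 ^ 2)) : ℝ) : ℂ) * I) * pro G x ρ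
      ∂((Measure.comap Subtype.val (volume : Measure ℝ) : Measure (Ioi (0 : ℝ))).withDensity
        fun r : Ioi (0 : ℝ) => ENNReal.ofReal (r.1 ^ (n - 1))) := rfl
  rw [h3, h2, ← integral_subtype_comap measurableSet_Ioi (fun ρ : ℝ => (ρ ^ (n - 1)) •
      (cexp (((-(2 * Real.pi * (s * ρ ^ 2)) : ℝ) : ℂ) * I) * pr G x ρ))]
  refine integral_congr_ae (Eventually.of_forall fun ρ => ?_)
  have hρ : 0 < ρ.1 := ρ.2
  simp only
  rw [ENNReal.toReal_ofReal (by positivity)]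
  rfl

lemma evo_fourier (hn : 1 ≤ n) {G : E n → ℂ} (hG : Integrable G) (x : E n) (s : ℝ) :
    evo G x s 0 = 𝓕 (hf G x) s := by
  rw [Real.fourier_real_eq_integral_exp_smul, evo_line hn hG]
  have e0 : ∀ τ : ℝ, cexp (((-2 * Real.pi * τ * s : ℝ) : ℂ) * I) • hf G x τ =
      (Ioi (0 : ℝ)).indicator (fun τ => cexp (((-2 * Real.pi * τ * s : ℝ) : ℂ) * I) •
        ((√τ ^ (n - 1) / (2 * √τ)) • pr G x √τ)) τ := by
    intro τ
    unfold hf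
    by_cases h : τ ∈ Ioi (0 : ℝ)
    · rw [indicator_of_mem h, indicator_of_mem h]
    · rw [indicator_of_notMem h, indicator_of_notMem h, smul_zero]
  simp_rw [e0]
  rw [integral_indicator measurableSet_Ioi]
  conv_rhs => rw [← image_sq]
  rw [integral_image_eq_integral_abs_deriv_smul (f' := fun ρ => 2 * ρ) measurableSet_Ioi
    (fun ρ _ => by simpa using (hasDerivAt_pow 2 ρ).hasDerivWithinAt) inj_sq]
  refine setIntegral_congr_fun measurableSet_Ioi fun ρ hρ => ?_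
  have hρ : 0 < ρ := hρ
  rw [Real.sqrt_sq hρ.le, abs_of_pos (by positivity), smul_eq_mul, real_smul, real_smul, real_smul]
  have h2 : (ρ : ℂ) ≠ 0 := by exact_mod_cast hρ.ne'
  push_cast
  have e3 : (-(2 * Real.pi * (s * (ρ : ℂ) ^ 2)) : ℂ) = -2 * Real.pi * (ρ : ℂ) ^ 2 * s := by ring
  rw [e3]
  field_simp

lemma lint_hf (G : E n → ℂ) (x : E n) :
    ∫⁻ τ, ‖hf G x τ‖ₑ ^ 2 = ∫⁻ ρ in Ioi (0 : ℝ), ENNReal.ofReal |2 * ρ| *
      ‖((ρ ^ (n - 1) / (2 * ρ)) • pr G x ρ : ℂ)‖ₑ ^ 2 := by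
  have e0 : ∀ τ : ℝ, ‖hf G x τ‖ₑ ^ 2 = (Ioi (0 : ℝ)).indicator
      (fun τ => ‖((√τ ^ (n - 1) / (2 * √τ)) • pr G x √τ : ℂ)‖ₑ ^ 2) τ := by
    intro τ
    unfold hf
    by_cases h : τ ∈ Ioi (0 : ℝ)
    · rw [indicator_of_mem h, indicator_of_mem h]
    · rw [indicator_of_notMem h, indicator_of_notMem h]; simp
  simp_rw [e0]
  rw [lintegral_indicator measurableSet_Ioi]
  conv_lhs => rw [← image_sq]
  rw [lintegral_image_eq_lintegral_abs_deriv_mul (f' := fun ρ => 2 * ρ) measurableSet_Ioi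
    (fun ρ _ => by simpa using (hasDerivAt_pow 2 ρ).hasDerivWithinAt) inj_sq]
  refine setLIntegral_congr_fun measurableSet_Ioi fun ρ hρ => ?_
  have hρ : 0 < ρ := hρ
  rw [Real.sqrt_sq hρ.le]

lemma lint_nu (F : ℝ → ℝ≥0∞) (hF : Measurable F) :
    ∫⁻ ρ, F ρ.1 ∂nu n = ∫⁻ ρ in Ioi (0 : ℝ), ENNReal.ofReal (ρ ^ (n - 1)) * F ρ := by
  have h1 : Measurable fun r : Ioi (0 : ℝ) => ENNReal.ofReal (r.1 ^ (n - 1)) := by fun_prop
  have e1 := lintegral_withDensity_eq_lintegral_mul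
    (Measure.comap Subtype.val (volume : Measure ℝ) : Measure (Ioi (0 : ℝ))) h1
    (hF.comp measurable_subtype_coe)
  rw [← lintegral_subtype_comap measurableSet_Ioi
    (fun ρ => ENNReal.ofReal (ρ ^ (n - 1)) * F ρ)]
  exact e1

lemma hf_le {R : ℝ} (hR : 0 < R) {G : E n → ℂ} (hm : Measurable G)
    (hG : ∀ η, G η ≠ 0 → R ≤ ‖η‖ ∧ ‖η‖ ≤ 2 * R) (x : E n) :
    ∫⁻ τ, ‖hf G x τ‖ₑ ^ 2 ≤ (ENNReal.ofReal R)⁻¹ * ∫⁻ ρ, 1 * kk n ρ * ‖pro G x ρ‖ₑ ^ 2 ∂nu n := by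
  have hmF : Measurable fun ρ : ℝ => 1 * ENNReal.ofReal (ρ ^ (n - 1)) * ‖pr G x ρ‖ₑ ^ 2 := by
    have := (measurable_pr hm x).enorm.pow_const 2
    fun_prop
  have e1 : ∫⁻ ρ, 1 * kk n ρ * ‖pro G x ρ‖ₑ ^ 2 ∂nu n = ∫⁻ ρ in Ioi (0 : ℝ),
      ENNReal.ofReal (ρ ^ (n - 1)) * (1 * ENNReal.ofReal (ρ ^ (n - 1)) * ‖pr G x ρ‖ₑ ^ 2) :=
    lint_nu _ hmF
  rw [e1, ← lintegral_const_mul _ (by fun_prop), lint_hf]
  refine setLIntegral_mono' measurableSet_Ioi fun ρ hρ => ?_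
  have hρ : 0 < ρ := hρ
  by_cases h : R ≤ ρ ∧ ρ ≤ 2 * R
  · rw [enorm_smul, mul_pow, Real.enorm_eq_ofReal (by positivity), abs_of_pos (by positivity),
      ← ENNReal.ofReal_pow (by positivity), ← mul_assoc, ← ENNReal.ofReal_mul (by positivity),
      one_mul, ← mul_assoc, ← mul_assoc, ← ENNReal.ofReal_inv_of_pos hR,
      ← ENNReal.ofReal_mul (by positivity), ← ENNReal.ofReal_mul (by positivity)]
    refine mul_le_mul_left (ENNReal.ofReal_le_ofReal ?_) _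
    have e2 : 2 * ρ * (ρ ^ (n - 1) / (2 * ρ)) ^ 2 = (2 * ρ)⁻¹ * ρ ^ (n - 1) * ρ ^ (n - 1) := by
      field_simp
    rw [e2]
    have h3 : (2 * ρ)⁻¹ ≤ R⁻¹ := inv_anti₀ hR (by linarith [h.1])
    gcongr
  · rw [pr_zero hG x hρ h]
    simp

lemma hf_bound {R : ℝ} (hR : 0 < R) {G : E n → ℂ} {B : ℝ} (hB : ∀ η, ‖G η‖ ≤ B)
    (hG : ∀ η, G η ≠ 0 → R ≤ ‖η‖ ∧ ‖η‖ ≤ 2 * R) (x : E n) (τ : ℝ) :
    ‖hf G x τ‖ ≤ (2 * R) ^ (n - 1) / (2 * R) * (B * (sig n).real univ) := by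
  have hB0 : 0 ≤ B := (norm_nonneg _).trans (hB 0)
  unfold hf
  by_cases h : τ ∈ Ioi (0 : ℝ)
  · have hs : 0 < √τ := Real.sqrt_pos.2 h
    rw [indicator_of_mem h, norm_smul, Real.norm_of_nonneg (by positivity)]
    by_cases h1 : R ≤ √τ ∧ √τ ≤ 2 * R
    · have h2 : ‖pr G x √τ‖ ≤ B * (sig n).real univ := norm_ext_le _ (fun ω => hB _) x
      have h3 : √τ ^ (n - 1) / (2 * √τ) ≤ (2 * R) ^ (n - 1) / (2 * R) :=
        div_le_div₀ (by positivity) (pow_le_pow_left₀ hs.le h1.2 _) (by positivity)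
          (by linarith [h1.1])
      exact mul_le_mul h3 h2 (norm_nonneg _) (by positivity)
    · rw [pr_zero hG x hs h1, norm_zero, mul_zero]
      positivity
  · rw [indicator_of_notMem h, norm_zero]
    positivity

lemma hf_ind {R : ℝ} {G : E n → ℂ} (hG : ∀ η, G η ≠ 0 → R ≤ ‖η‖ ∧ ‖η‖ ≤ 2 * R)
    (x : E n) : (Icc (0 : ℝ) ((2 * R) ^ 2)).indicator (hf G x) = hf G x := by
  refine indicator_eq_self.2 fun τ hτ => ?_
  by_contra h
  refine hτ ?_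
  unfold hf
  by_cases h1 : τ ∈ Ioi (0 : ℝ)
  · have h1' : 0 < τ := h1
    rw [indicator_of_mem h1, pr_zero hG x (Real.sqrt_pos.2 h1'), smul_zero]
    rintro ⟨-, h3⟩
    refine h ⟨h1'.le, ?_⟩
    rw [← Real.sq_sqrt h1'.le]
    exact pow_le_pow_left₀ (Real.sqrt_nonneg _) h3 2
  · rw [indicator_of_notMem h1]

lemma hf_memLp {R : ℝ} (hR : 0 < R) {G : E n → ℂ} (hm : Measurable G) {B : ℝ}
    (hB : ∀ η, ‖G η‖ ≤ B) (hG : ∀ η, G η ≠ 0 → R ≤ ‖η‖ ∧ ‖η‖ ≤ 2 * R) (x : E n) (p : ℝ≥0∞) :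
    MemLp (hf G x) p := by
  rw [← hf_ind hG x, memLp_indicator_iff_restrict measurableSet_Icc]
  exact MemLp.of_bound (measurable_hf hm x).aestronglyMeasurable _
    (Eventually.of_forall fun τ => hf_bound hR hB hG x τ)

/-- Kato smoothing, one point, bounded data -/
lemma kato_pt (hn : 1 ≤ n) {R : ℝ} (hR : 0 < R) {G : E n → ℂ} (hm : Measurable G)
    (hi : Integrable G) {B : ℝ} (hB : ∀ η, ‖G η‖ ≤ B)
    (hG : ∀ η, G η ≠ 0 → R ≤ ‖η‖ ∧ ‖η‖ ≤ 2 * R) (x : E n) :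
    ∫⁻ s : ℝ, ‖evo G x s 0‖ₑ ^ 2 ≤
      (ENNReal.ofReal R)⁻¹ * ∫⁻ ρ, 1 * kk n ρ * ‖pro G x ρ‖ₑ ^ 2 ∂nu n := by
  simp_rw [evo_fourier hn hi]
  rw [planch (memLp_one_iff_integrable.1 (hf_memLp hR hm hB hG x 1)) (hf_memLp hR hm hB hG x 2)]
  exact hf_le hR hm hG x

/-- Kato smoothing, bounded data -/
lemma kato_bdd (hn : 1 ≤ n) {R : ℝ} (hR : 0 < R) {G : E n → ℂ} (hm : Measurable G)
    (hi : Integrable G) {B : ℝ} (hB : ∀ η, ‖G η‖ ≤ B)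
    (hG : ∀ η, G η ≠ 0 → R ≤ ‖η‖ ∧ ‖η‖ ≤ 2 * R) :
    ∫⁻ x : E n, ENNReal.ofReal (Real.exp (-‖x‖ ^ 2)) * ∫⁻ s : ℝ, ‖evo G x s 0‖ₑ ^ 2 ≤
      ENNReal.ofReal (C0 n) * (ENNReal.ofReal R)⁻¹ * ∫⁻ η, ‖G η‖ₑ ^ 2 := by
  have hv : Measurable fun _ : ℝ => (1 : ℝ≥0∞) := measurable_const
  have s1 : ∀ x : E n, ENNReal.ofReal (Real.exp (-‖x‖ ^ 2)) *
      ((ENNReal.ofReal R)⁻¹ * ∫⁻ ρ, 1 * kk n ρ * ‖pro G x ρ‖ₑ ^ 2 ∂nu n)
      = (ENNReal.ofReal R)⁻¹ * ∫⁻ ρ, ENNReal.ofReal (Real.exp (-‖x‖ ^ 2)) *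
          (1 * kk n ρ * ‖pro G x ρ‖ₑ ^ 2) ∂nu n := by
    intro x
    have hm2 : Measurable fun ρ : Ioi (0 : ℝ) => 1 * kk n ρ * ‖pro G x ρ‖ₑ ^ 2 :=
      (measurable_const.mul measurable_kk).mul ((measurable_pro_right hm x).enorm.pow_const 2)
    rw [lintegral_const_mul _ hm2]
    ring
  have hjm := measurable_joint hv hm
  have s2 : ∫⁻ x : E n, (∫⁻ ρ, ENNReal.ofReal (Real.exp (-‖x‖ ^ 2)) *
          (1 * kk n ρ * ‖pro G x ρ‖ₑ ^ 2) ∂nu n)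
      = ∫⁻ ρ, (∫⁻ x : E n, ENNReal.ofReal (Real.exp (-‖x‖ ^ 2)) *
          (1 * kk n ρ * ‖pro G x ρ‖ₑ ^ 2)) ∂nu n :=
    lintegral_lintegral_swap hjm.aemeasurable
  have hjx : Measurable fun x : E n => ∫⁻ ρ, ENNReal.ofReal (Real.exp (-‖x‖ ^ 2)) *
          (1 * kk n ρ * ‖pro G x ρ‖ₑ ^ 2) ∂nu n := hjm.lintegral_prod_right'
  calc ∫⁻ x : E n, ENNReal.ofReal (Real.exp (-‖x‖ ^ 2)) * ∫⁻ s : ℝ, ‖evo G x s 0‖ₑ ^ 2
      ≤ ∫⁻ x : E n, ENNReal.ofReal (Real.exp (-‖x‖ ^ 2)) *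
          ((ENNReal.ofReal R)⁻¹ * ∫⁻ ρ, 1 * kk n ρ * ‖pro G x ρ‖ₑ ^ 2 ∂nu n) :=
        lintegral_mono fun x => mul_le_mul_right (kato_pt hn hR hm hi hB hG x) _
    _ = (ENNReal.ofReal R)⁻¹ * ∫⁻ ρ, (∫⁻ x : E n, ENNReal.ofReal (Real.exp (-‖x‖ ^ 2)) *
          (1 * kk n ρ * ‖pro G x ρ‖ₑ ^ 2)) ∂nu n := by
        simp_rw [s1]
        rw [lintegral_const_mul _ hjx, s2]
    _ ≤ (ENNReal.ofReal R)⁻¹ * ∫⁻ ρ, ENNReal.ofReal (C0 n) * (1 * SS G ρ) ∂nu n :=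
        mul_le_mul_right (lintegral_mono fun ρ => rad_s3 hn (sphG hn) _ hm hB ρ) _
    _ = _ := by
        have hm3 : Measurable fun ρ : Ioi (0 : ℝ) => 1 * SS G ρ :=
          measurable_const.mul (measurable_SS hm)
        rw [lintegral_const_mul _ hm3, ← rad_pol hn hv hm]
        simp only [one_mul]
        ring

lemma shell_int {R : ℝ} {G : E n → ℂ} (hG : Shell R G) : Integrable G := by
  have h2 : MemLp G 2 volume := by
    refine ⟨hG.meas.aestronglyMeasurable, ?_⟩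
    rw [eLpNorm_lt_top_iff_lintegral_rpow_enorm_lt_top (by norm_num) (by norm_num)]
    simpa using hG.l2.lt_top
  have h3 : (Metric.closedBall (0 : E n) (2 * R)).indicator G = G := by
    refine indicator_eq_self.2 fun η hη => ?_
    rw [mem_closedBall_zero_iff]
    exact (hG.supp η hη).2
  have h4 : MemLp ((Metric.closedBall (0 : E n) (2 * R)).indicator G) 1 volume := by
    rw [memLp_indicator_iff_restrict Metric.isClosed_closedBall.measurableSet]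
    have : IsFiniteMeasure ((volume : Measure (E n)).restrict (Metric.closedBall 0 (2 * R))) :=
      ⟨by simpa using measure_closedBall_lt_top⟩
    exact (h2.restrict _).mono_exponent (by norm_num)
  rw [h3] at h4
  exact memLp_one_iff_integrable.1 h4

lemma cut_norm_le (G : E n → ℂ) (m : ℕ) (η : E n) : ‖cut G m η‖ ≤ ‖G η‖ := by
  unfold cut
  exact norm_indicator_le_norm_self _ _

lemma tendsto_evo_cut {R : ℝ} {G : E n → ℂ} (hG : Shell R G) (x : E n) (s : ℝ) :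
    Tendsto (fun m => evo (cut G m) x s 0) atTop (𝓝 (evo G x s 0)) := by
  simp_rw [evo_eq]
  refine tendsto_integral_of_dominated_convergence (fun η => ‖G η‖) ?_ (shell_int hG).norm ?_ ?_
  · intro m
    exact (continuous_ph x s 0).aestronglyMeasurable.mul
      (hG.meas.indicator (measurableSet_cut hG.meas m)).aestronglyMeasurable
  · refine fun m => Eventually.of_forall fun η => ?_
    rw [norm_mul]
    exact (mul_le_of_le_one_left (norm_nonneg _) (norm_ph_le x s le_rfl η)).trans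
      (cut_norm_le G m η)
  · refine Eventually.of_forall fun η => ?_
    refine tendsto_const_nhds.congr' ?_
    obtain ⟨m₀, hm₀⟩ := exists_nat_ge (max ‖η‖ ‖G η‖)
    filter_upwards [eventually_ge_atTop m₀] with m hm
    have h : η ∈ {η | ‖η‖ ≤ m ∧ ‖G η‖ ≤ m} := by
      have : (m₀ : ℝ) ≤ m := by exact_mod_cast hm
      exact ⟨((le_max_left _ _).trans hm₀).trans this, ((le_max_right _ _).trans hm₀).trans this⟩
    simp only [cut]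
    rw [indicator_of_mem h]

/-- ROW K: Kato smoothing -/
theorem kato (hn : 1 ≤ n) : ∃ C : ℝ≥0∞, C ≠ ⊤ ∧ ∀ (R : ℝ) (G : E n → ℂ), 0 < R → Shell R G →
    ∫⁻ x : E n, ENNReal.ofReal (Real.exp (-‖x‖ ^ 2)) * ∫⁻ s : ℝ, ‖evo G x s 0‖ₑ ^ 2 ≤
      C * (ENNReal.ofReal R)⁻¹ * ∫⁻ η, ‖G η‖ₑ ^ 2 := by
  refine ⟨ENNReal.ofReal (C0 n), ENNReal.ofReal_ne_top, fun R G hR hG => ?_⟩
  have hi := shell_int hG
  have hic : ∀ m, Integrable (cut G m) := fun m => hi.indicator (measurableSet_cut hG.meas m)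
  -- the joint functions
  have hW : Measurable fun p : E n × ℝ => ENNReal.ofReal (Real.exp (-‖p.1‖ ^ 2)) := by fun_prop
  have hjm : ∀ H : E n → ℂ, Integrable H → Measurable fun p : E n × ℝ =>
      ENNReal.ofReal (Real.exp (-‖p.1‖ ^ 2)) * ‖evo H p.1 p.2 0‖ₑ ^ 2 := fun H hH =>
    hW.mul ((continuous_evo hH).measurable.enorm.pow_const 2)
  have hprod : ∀ H : E n → ℂ, Integrable H →
      ∫⁻ x : E n, ENNReal.ofReal (Real.exp (-‖x‖ ^ 2)) * ∫⁻ s : ℝ, ‖evo H x s 0‖ₑ ^ 2 =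
      ∫⁻ p : E n × ℝ, ENNReal.ofReal (Real.exp (-‖p.1‖ ^ 2)) * ‖evo H p.1 p.2 0‖ₑ ^ 2 := by
    intro H hH
    rw [show (volume : Measure (E n × ℝ)) = (volume : Measure (E n)).prod volume from rfl,
      lintegral_prod _ (hjm H hH).aemeasurable]
    refine lintegral_congr fun x => ?_
    exact (lintegral_const_mul _ ((continuous_evo_s hH x).measurable.enorm.pow_const 2)).symm
  have hb : ∀ m, ∫⁻ p : E n × ℝ, ENNReal.ofReal (Real.exp (-‖p.1‖ ^ 2)) *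
      ‖evo (cut G m) p.1 p.2 0‖ₑ ^ 2 ≤
      ENNReal.ofReal (C0 n) * (ENNReal.ofReal R)⁻¹ * ∫⁻ η, ‖G η‖ₑ ^ 2 := by
    intro m
    rw [← hprod _ (hic m)]
    refine (kato_bdd hn hR (hG.meas.indicator (measurableSet_cut hG.meas m)) (hic m) (B := m)
      (fun η => ?_) (fun η hη => hG.supp η fun h0 => hη ?_)).trans ?_
    · by_cases h : η ∈ {η | ‖η‖ ≤ m ∧ ‖G η‖ ≤ m}
      · rw [indicator_of_mem h]; exact h.2
      · rw [indicator_of_notMem h, norm_zero]; positivity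
    · by_cases h : η ∈ {η | ‖η‖ ≤ m ∧ ‖G η‖ ≤ m}
      · rw [indicator_of_mem h]; exact h0
      · rw [indicator_of_notMem h]
    · refine mul_le_mul_right (lintegral_mono fun η => pow_le_pow_left' ?_ 2) _
      rw [← ofReal_norm, ← ofReal_norm]
      exact ENNReal.ofReal_le_ofReal (cut_norm_le G m η)
  rw [hprod G hi]
  have hlim : ∀ p : E n × ℝ, ENNReal.ofReal (Real.exp (-‖p.1‖ ^ 2)) * ‖evo G p.1 p.2 0‖ₑ ^ 2 =
      liminf (fun m => ENNReal.ofReal (Real.exp (-‖p.1‖ ^ 2)) *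
        ‖evo (cut G m) p.1 p.2 0‖ₑ ^ 2) atTop := by
    intro p
    refine (Tendsto.liminf_eq ?_).symm
    refine ENNReal.Tendsto.const_mul ?_ (Or.inr ENNReal.ofReal_ne_top)
    exact ENNReal.Tendsto.pow ((tendsto_evo_cut hG p.1 p.2).enorm)
  calc ∫⁻ p : E n × ℝ, ENNReal.ofReal (Real.exp (-‖p.1‖ ^ 2)) * ‖evo G p.1 p.2 0‖ₑ ^ 2
      = ∫⁻ p : E n × ℝ, liminf (fun m => ENNReal.ofReal (Real.exp (-‖p.1‖ ^ 2)) *
        ‖evo (cut G m) p.1 p.2 0‖ₑ ^ 2) atTop := lintegral_congr hlim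
    _ ≤ liminf (fun m => ∫⁻ p : E n × ℝ, ENNReal.ofReal (Real.exp (-‖p.1‖ ^ 2)) *
        ‖evo (cut G m) p.1 p.2 0‖ₑ ^ 2) atTop := lintegral_liminf_le fun m => hjm _ (hic m)
    _ ≤ liminf (fun _ : ℕ => ENNReal.ofReal (C0 n) * (ENNReal.ofReal R)⁻¹ *
        ∫⁻ η, ‖G η‖ₑ ^ 2) atTop := liminf_le_liminf (Eventually.of_forall hb)
    _ = _ := liminf_const _

end Vale.Agent.P076.R2.H657
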